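import Vale.Agent.P205.Final

open scoped ContDiff
open Real

namespace Vale.Agent.Results.P205.TorusR4

/-- the scaling of the plane by 2π -/
noncomputable def sc : (ℝ × ℝ) →L[ℝ] (ℝ × ℝ) := (2 * π) • ContinuousLinearMap.id ℝ (ℝ × ℝ)

theorem sc_apply (p : ℝ × ℝ) : sc p = (2 * π * p.1, 2 * π * p.2) := rfl

theorem int_per1 {α : Type*} (f : ℝ × ℝ → α) (h : ∀ x y, f (x + 2 * π, y) = f (x, y)) (m : ℤ)
    (x y : ℝ) : f (x + 2 * π * m, y) = f (x, y) := by
  have hn : ∀ (k : ℕ) (x : ℝ), f (x + 2 * π * k, y) = f (x, y) := by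
    intro k
    induction k with
    | zero => intro x; simp
    | succ k ih =>
      intro x
      have : x + 2 * π * ((k + 1 : ℕ) : ℝ) = (x + 2 * π * k) + 2 * π := by push_cast; ring
      rw [this, h, ih]
  obtain ⟨k, rfl | rfl⟩ := m.eq_nat_or_neg
  · simpa using hn k x
  · have h2 := hn k (x + 2 * π * ((-(k : ℤ) : ℤ) : ℝ))
    have e : x + 2 * π * ((-(k : ℤ) : ℤ) : ℝ) + 2 * π * (k : ℝ) = x := by push_cast; ring
    rw [e] at h2
    exact h2.symm

theorem int_per2 {α : Type*} (f : ℝ × ℝ → α) (h : ∀ x y, f (x, y + 2 * π) = f (x, y)) (m : ℤ)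
    (x y : ℝ) : f (x, y + 2 * π * m) = f (x, y) :=
  int_per1 (fun p : ℝ × ℝ => f (p.2, p.1)) (fun x y => h y x) m y x

theorem quad_form (B : (ℝ × ℝ) →L[ℝ] (ℝ × ℝ) →L[ℝ] ℝ) (hs : ∀ v w, B v w = B w v) (v : ℝ × ℝ) :
    B v v = B (1, 0) (1, 0) * v.1 ^ 2 + 2 * B (1, 0) (0, 1) * v.1 * v.2 +
      B (0, 1) (0, 1) * v.2 ^ 2 := by
  have e : v = v.1 • ((1, 0) : ℝ × ℝ) + v.2 • ((0, 1) : ℝ × ℝ) := by ext <;> simp
  have h : B (0, 1) (1, 0) = B (1, 0) (0, 1) := hs _ _
  conv_lhs => rw [e]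
  simp only [map_add, map_smul, add_apply, smul_apply, smul_eq_mul, h]
  ring

/-- Every smooth Riemannian metric on the torus `ℝ²/ℤ²` has a smooth isometric immersion into
Euclidean four-space. -/
theorem result (g : ℝ × ℝ → (ℝ × ℝ) →L[ℝ] (ℝ × ℝ) →L[ℝ] ℝ)
    (hsmooth : ContDiff ℝ ∞ g)
    (hper : ∀ (p : ℝ × ℝ) (m n : ℤ), g (p + ((m : ℝ), (n : ℝ))) = g p)
    (hsymm : ∀ p v w, g p v w = g p w v)
    (hpos : ∀ p v, v ≠ 0 → 0 < g p v v) :
    ∃ f : ℝ × ℝ → EuclideanSpace ℝ (Fin 4),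
      ContDiff ℝ ∞ f ∧
      (∀ (p : ℝ × ℝ) (m n : ℤ), f (p + ((m : ℝ), (n : ℝ))) = f p) ∧
      ∀ p v w, inner ℝ (fderiv ℝ f p v) (fderiv ℝ f p w) = g p v w := by
  have hpi : (2 * π : ℝ) ≠ 0 := by positivity
  -- the metric in the rescaled coordinates
  let r : ℝ × ℝ → ℝ × ℝ := fun z => ((2 * π)⁻¹ : ℝ) • z
  have hr : ContDiff ℝ ∞ r := contDiff_const_smul _
  have hcoef : ∀ v w : ℝ × ℝ, ContDiff ℝ ∞ fun z => g (r z) v w := fun v w =>
    ((hsmooth.comp hr).clm_apply contDiff_const).clm_apply contDiff_const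
  have hp1 : ∀ x y : ℝ, g (r (x + 2 * π, y)) = g (r (x, y)) := by
    intro x y
    have e : r (x + 2 * π, y) = r (x, y) + (((1 : ℤ) : ℝ), ((0 : ℤ) : ℝ)) := by
      simp only [r]
      ext
      · simp [mul_add]
        field_simp
      · simp
    rw [e, hper]
  have hp2 : ∀ x y : ℝ, g (r (x, y + 2 * π)) = g (r (x, y)) := by
    intro x y
    have e : r (x, y + 2 * π) = r (x, y) + (((0 : ℤ) : ℝ), ((1 : ℤ) : ℝ)) := by
      simp only [r]
      ext
      · simp
      · simp [mul_add]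
        field_simp
    rw [e, hper]
  have hdet : ∀ z, 0 < g (r z) (1, 0) (1, 0) ∧
      (g (r z) (1, 0) (0, 1)) ^ 2 < g (r z) (1, 0) (1, 0) * g (r z) (0, 1) (0, 1) := by
    intro z
    have h1 : 0 < g (r z) (1, 0) (1, 0) := hpos _ _ (by
      intro h
      have := congrArg Prod.fst h
      simp at this)
    refine ⟨h1, ?_⟩
    have h2 := hpos (r z) (-(g (r z) (1, 0) (0, 1)), g (r z) (1, 0) (1, 0)) (by
      intro h
      have := congrArg Prod.snd h
      simp only [Prod.snd_zero] at this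
      linarith)
    rw [quad_form _ (hsymm (r z))] at h2
    have h3 : 0 < g (r z) (1, 0) (1, 0) * (g (r z) (1, 0) (1, 0) * g (r z) (0, 1) (0, 1) -
        (g (r z) (1, 0) (0, 1)) ^ 2) := by
      simp only at h2
      nlinarith [h2]
    have h4 := (mul_pos_iff_of_pos_left h1).mp h3
    linarith
  obtain ⟨f, hf, hfp, hfm⟩ := Vale.Agent.P205.torus_R4 (fun z => g (r z) (1, 0) (1, 0))
    (fun z => g (r z) (1, 0) (0, 1)) (fun z => g (r z) (0, 1) (0, 1)) (hcoef _ _) (hcoef _ _)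
    (hcoef _ _) (fun x y => ⟨by rw [hp1], by rw [hp2]⟩) (fun x y => ⟨by rw [hp1], by rw [hp2]⟩)
    (fun x y => ⟨by rw [hp1], by rw [hp2]⟩) hdet
  let F : ℝ × ℝ → EuclideanSpace ℝ (Fin 4) := fun p =>
    WithLp.toLp 2 (fun c => (2 * π)⁻¹ * f c (sc p))
  have hFc : ∀ p c, F p c = (2 * π)⁻¹ * f c (sc p) := fun p c => rfl
  have hF : ContDiff ℝ ∞ F := by
    refine contDiff_euclidean.2 fun c => ?_
    exact contDiff_const.mul ((hf c).comp sc.contDiff)
  have hsq : ∀ p v, inner ℝ (fderiv ℝ F p v) (fderiv ℝ F p v) = g p v v := by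
    intro p v
    have hd : HasFDerivAt F (fderiv ℝ F p) p :=
      ((hF.differentiable (by simp)) p).hasFDerivAt
    have hcomp : ∀ c, (fderiv ℝ F p v) c = fderiv ℝ (f c) (sc p) v := by
      intro c
      have h1 := hasFDerivWithinAt_univ.1
        ((hasFDerivWithinAt_euclidean.1 (hasFDerivWithinAt_univ.2 hd)) c)
      have h2 : HasFDerivAt (fun p => F p c)
          ((2 * π)⁻¹ • (fderiv ℝ (f c) (sc p)).comp sc) p := by
        have h3 : HasFDerivAt (fun p => f c (sc p)) ((fderiv ℝ (f c) (sc p)).comp sc) p :=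
          ((((hf c).differentiable (by simp)) (sc p)).hasFDerivAt).comp p sc.hasFDerivAt
        exact h3.const_mul _
      have h4 := congrArg (fun L : ℝ × ℝ →L[ℝ] ℝ => L v) (h1.unique h2)
      have h5 : sc v = (2 * π) • v := rfl
      simp only [ContinuousLinearMap.comp_apply, smul_apply, h5, map_smul, smul_eq_mul] at h4
      rw [← mul_assoc, inv_mul_cancel₀ hpi, one_mul] at h4
      exact h4
    have h6 : inner ℝ (fderiv ℝ F p v) (fderiv ℝ F p v) = ∑ c, (fderiv ℝ (f c) (sc p) v) ^ 2 := by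
      rw [PiLp.inner_apply]
      refine Finset.sum_congr rfl fun c _ => ?_
      rw [hcomp]
      simp [sq]
    have h7 : r (sc p) = p := by
      have h5 : sc p = (2 * π) • p := rfl
      simp only [r, h5, smul_smul, inv_mul_cancel₀ hpi, one_smul]
    rw [h6, hfm (sc p) v, h7, quad_form _ (hsymm p) v]
  refine ⟨F, hF, ?_, ?_⟩
  · intro p m n
    have h5 : sc (p + ((m : ℝ), (n : ℝ))) = (2 * π * p.1 + 2 * π * m, 2 * π * p.2 + 2 * π * n) := by
      rw [sc_apply]
      simp [mul_add]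
    ext c
    rw [hFc, hFc, h5, int_per1 (f c) (fun x y => (hfp c x y).1) m,
      int_per2 (f c) (fun x y => (hfp c x y).2) n, sc_apply]
  · intro p v w
    have h1 := hsq p (v + w)
    have h2 := hsq p v
    have h3 := hsq p w
    simp only [map_add, add_apply, inner_add_left, inner_add_right] at h1
    rw [real_inner_comm (fderiv ℝ F p v) (fderiv ℝ F p w)] at h1
    have h4 := hsymm p v w
    rw [h2, h3] at h1
    linarith

end Vale.Agent.Results.P205.TorusR4
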